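import Mathlib

namespace Vale.Agent.P043

/-- `A ⊕ F = G`: every `g` has a unique expression `g = a + f` with `a ∈ A` and `f ∈ F`. -/
def Tiles {G : Type*} [AddCommGroup G] (A F : Set G) : Prop :=
  ∀ g : G, ∃! q : G × G, q.1 ∈ A ∧ q.2 ∈ F ∧ q.1 + q.2 = g

/-- `A + h = A` for every `h` in some subgroup of finite index of `G`. -/
def Periodic {G : Type*} [AddCommGroup G] (A : Set G) : Prop :=
  ∃ H : AddSubgroup G, H.FiniteIndex ∧ ∀ h ∈ H, (fun a => a + h) '' A = A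

/-- The periodic tiling conjecture for `G`: every finite nonempty `F` that tiles `G` by
translations admits a periodic tiling. -/
def PTC (G : Type*) [AddCommGroup G] : Prop :=
  ∀ F : Finset G, F.Nonempty → (∃ A : Set G, Tiles A (F : Set G)) →
    ∃ A : Set G, Tiles A (F : Set G) ∧ Periodic A

variable {G : Type*} [AddCommGroup G]

theorem periodic_of_mem_iff {A : Set G} (H : AddSubgroup G) (hH : H.FiniteIndex)
    (h : ∀ h ∈ H, ∀ a ∈ A, a + h ∈ A) : Periodic A := by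
  refine ⟨H, hH, fun x hx => ?_⟩
  ext a
  constructor
  · rintro ⟨b, hb, rfl⟩
    exact h x hx b hb
  · intro ha
    exact ⟨a + -x, h (-x) (H.neg_mem hx) a ha, by simp⟩

theorem mem_of_image_eq {A : Set G} {x : G} (h : (fun a => a + x) '' A = A) {a : G}
    (ha : a ∈ A) : a + x ∈ A := by
  rw [← h]
  exact ⟨a, ha, rfl⟩

theorem Tiles.exists_rep {A F : Set G} (h : Tiles A F) (g : G) :
    ∃ a ∈ A, ∃ f ∈ F, a + f = g := by
  obtain ⟨q, ⟨h1, h2, h3⟩, _⟩ := h g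
  exact ⟨q.1, h1, q.2, h2, h3⟩

theorem Tiles.unique_rep {A F : Set G} (h : Tiles A F) {a a' f f' : G} (ha : a ∈ A)
    (ha' : a' ∈ A) (hf : f ∈ F) (hf' : f' ∈ F) (e : a + f = a' + f') : a = a' ∧ f = f' := by
  obtain ⟨q, _, hq⟩ := h (a + f)
  have h1 := hq (a, f) ⟨ha, hf, rfl⟩
  have h2 := hq (a', f') ⟨ha', hf', e.symm⟩
  have h3 : (a, f) = (a', f') := h1.trans h2.symm
  exact ⟨congrArg Prod.fst h3, congrArg Prod.snd h3⟩

theorem tiles_of {A F : Set G} (hex : ∀ g, ∃ a ∈ A, ∃ f ∈ F, a + f = g)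
    (hun : ∀ a ∈ A, ∀ a' ∈ A, ∀ f ∈ F, ∀ f' ∈ F, a + f = a' + f' → a = a' ∧ f = f') :
    Tiles A F := by
  intro g
  obtain ⟨a, ha, f, hf, e⟩ := hex g
  refine ⟨(a, f), ⟨ha, hf, e⟩, ?_⟩
  rintro ⟨a', f'⟩ ⟨ha', hf', e'⟩
  obtain ⟨h1, h2⟩ := hun a' ha' a ha f' hf' f hf (e'.trans e.symm)
  rw [h1, h2]

end Vale.Agent.P043
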